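/-
helper64 -- S0355 squad (track D), leaf F (Polar): the Wulff shape of `κ·S` is `κ • W`.

(⊆) both sides of `⟪x,u⟫ ≤ κ·S u` are positively homogeneous in `u`, so the condition on the
unit sphere is the condition for every `u`; test `u = ± e_i` (`S ≤ 2`) and `u = e_i - e_j` with
`i, j` in one block (`S ≤ 2`).
(⊇) for `w ∈ W` and a block `B` put `c = max (-1) (max_B w - 1)`; then `|c| ≤ 1`, `|w i - c| ≤ 1`
on `B`, hence `∑_B w i u i = ∑_B (w i - c) u i + c ∑_B u i ≤ ∑_B |u i| + |∑_B u i|`.
-/
import Crest.Agent.Helper28.S0355.Defs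

set_option autoImplicit false
open MeasureTheory
open scoped ENNReal Pointwise

namespace Crest.Agent.Helper64.S0355

open Crest.Agent.Helper28.S0355

theorem kappa_pos : 0 < κ := by
  unfold κ; positivity

/-- `S` is absolutely homogeneous. -/
theorem S_smul (c : ℝ) (u : P20) : S (c • u) = |c| * S u := by
  unfold S s1 s2
  simp only [Pi.smul_apply, smul_eq_mul, abs_mul, ← Finset.mul_sum]
  ring

theorem S_zero : S (0 : P20) = 0 := by
  simp [S, s1, s2]

theorem inner_eq_sum (x u : E20) : inner ℝ x u = ∑ i, x i * u i := by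
  simp [PiLp.inner_apply, mul_comm]

/-- Homogenisation: the condition on the unit sphere is the condition for every `u`. -/
theorem mem_iInter_sphere_iff (x : E20) :
    x ∈ (⋂ u ∈ Metric.sphere (0 : E20) 1, {x : E20 | inner ℝ x u ≤ κ * S (WithLp.ofLp u)}) ↔
      ∀ u : P20, ∑ i, x i * u i ≤ κ * S u := by
  simp only [Set.mem_iInter, Set.mem_ofPred_eq, mem_sphere_zero_iff_norm]
  constructor
  · intro h u
    by_cases hu : (WithLp.toLp 2 u : E20) = 0
    · have hu0 : u = 0 := by
        have := congrArg WithLp.ofLp hu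
        simpa using this
      subst hu0
      simp [S_zero]
    · have hn : 0 < ‖(WithLp.toLp 2 u : E20)‖ := norm_pos_iff.mpr hu
      set n : ℝ := ‖(WithLp.toLp 2 u : E20)‖ with hn_def
      have h1 := h (n⁻¹ • (WithLp.toLp 2 u : E20)) (by
        rw [norm_smul, norm_inv, norm_norm, inv_mul_cancel₀ hn.ne'])
      rw [inner_smul_right, inner_eq_sum] at h1
      have h2 : WithLp.ofLp (n⁻¹ • (WithLp.toLp 2 u : E20)) = n⁻¹ • u := rfl
      rw [h2, S_smul, abs_of_pos (inv_pos.mpr hn)] at h1
      have h3 := mul_le_mul_of_nonneg_left h1 hn.le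
      have e1 : n * (n⁻¹ * ∑ i, x i * (WithLp.toLp 2 u : E20) i) = ∑ i, x i * u i := by
        rw [← mul_assoc, mul_inv_cancel₀ hn.ne', one_mul]
      have e2 : n * (κ * (n⁻¹ * S u)) = κ * S u := by
        field_simp
      rw [e1, e2] at h3
      exact h3
  · intro h u _
    rw [inner_eq_sum]
    exact h (WithLp.ofLp u)

theorem sum_abs_single (i : Fin 20) (c : ℝ) : ∑ k, |(Pi.single i c : P20) k| = |c| := by
  rw [Finset.sum_eq_single i]
  · simp
  · intro b _ hb
    simp [hb]
  · intro h
    exact absurd (Finset.mem_univ i) h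

theorem sum_single (B : Finset (Fin 20)) (i : Fin 20) (c : ℝ) :
    ∑ k ∈ B, (Pi.single i c : P20) k = if i ∈ B then c else 0 := by
  rw [Finset.sum_pi_single']

theorem S_single_le (i : Fin 20) (c : ℝ) : S (Pi.single i c) ≤ 2 * |c| := by
  unfold S s1 s2
  rw [sum_abs_single, sum_single, sum_single]
  by_cases hi : i ∈ B1
  · have hi2 : i ∉ B2 := by
      unfold B2; simpa using hi
    simp [hi, hi2]
    linarith
  · have hi2 : i ∈ B2 := by
      unfold B2; simpa using hi
    simp [hi, hi2]
    linarith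

/-- `S (e_i - e_j) ≤ 2` when `i, j` lie in the same block. -/
theorem S_single_sub_le (i j : Fin 20) (h : (i ∈ B1 ↔ j ∈ B1)) :
    S (Pi.single i 1 - Pi.single j 1) ≤ 2 := by
  unfold S s1 s2
  have h1 : ∑ k, |((Pi.single i 1 - Pi.single j 1 : P20)) k| ≤ 2 := by
    calc ∑ k, |((Pi.single i 1 - Pi.single j 1 : P20)) k|
        ≤ ∑ k, (|(Pi.single i (1:ℝ) : P20) k| + |(Pi.single j (1:ℝ) : P20) k|) := by
          apply Finset.sum_le_sum
          intro k _
          rw [Pi.sub_apply]
          exact abs_sub _ _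
      _ = 2 := by
          rw [Finset.sum_add_distrib, sum_abs_single, sum_abs_single]
          norm_num
  have h2 : ∀ B : Finset (Fin 20), (i ∈ B ↔ j ∈ B) →
      ∑ k ∈ B, (Pi.single i 1 - Pi.single j 1 : P20) k = 0 := by
    intro B hB
    simp only [Pi.sub_apply, Finset.sum_sub_distrib, sum_single]
    by_cases hi : i ∈ B
    · have hj : j ∈ B := hB.mp hi
      simp [hi, hj]
    · have hj : j ∉ B := fun hj => hi (hB.mpr hj)
      simp [hi, hj]
  have h3 : (i ∈ B2 ↔ j ∈ B2) := by
    unfold B2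
    simp only [Finset.mem_compl]
    exact not_congr h
  rw [h2 B1 h, h2 B2 h3]
  simpa using h1

/-- One block: `∑_B w i u i ≤ ∑_B |u i| + |∑_B u i|`. -/
theorem block_bound (B : Finset (Fin 20)) (w u : P20) (h2 : ∀ i ∈ B, |w i| ≤ 2)
    (hd : ∀ i ∈ B, ∀ j ∈ B, w i - w j ≤ 2) :
    ∑ i ∈ B, w i * u i ≤ ∑ i ∈ B, |u i| + |∑ i ∈ B, u i| := by
  obtain ⟨c, hc, hwc⟩ : ∃ c : ℝ, |c| ≤ 1 ∧ ∀ i ∈ B, |w i - c| ≤ 1 := by
    rcases B.eq_empty_or_nonempty with rfl | hne
    · exact ⟨0, by simp, by simp⟩
    · obtain ⟨iM, hiM, hM⟩ := B.exists_max_image w hne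
      refine ⟨max (-1) (w iM - 1), ?_, fun i hi => ?_⟩
      · have := h2 iM hiM
        rw [abs_le] at this ⊢
        constructor
        · exact le_max_left _ _
        · apply max_le <;> linarith
      · have h1 := hM i hi
        have h3 := hd iM hiM i hi
        have h4 := h2 i hi
        rw [abs_le] at h4 ⊢
        constructor
        · have : max (-1) (w iM - 1) ≤ w i + 1 := max_le (by linarith) (by linarith)
          linarith
        · have : w iM - 1 ≤ max (-1) (w iM - 1) := le_max_right _ _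
          linarith
  calc ∑ i ∈ B, w i * u i = ∑ i ∈ B, (w i - c) * u i + c * ∑ i ∈ B, u i := by
        rw [Finset.mul_sum, ← Finset.sum_add_distrib]
        apply Finset.sum_congr rfl
        intros; ring
    _ ≤ ∑ i ∈ B, |u i| + |∑ i ∈ B, u i| := by
        apply add_le_add
        · apply Finset.sum_le_sum
          intro i hi
          calc (w i - c) * u i ≤ |(w i - c) * u i| := le_abs_self _
            _ = |w i - c| * |u i| := abs_mul _ _
            _ ≤ 1 * |u i| := mul_le_mul_of_nonneg_right (hwc i hi) (abs_nonneg _)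
            _ = |u i| := one_mul _
        · calc c * ∑ i ∈ B, u i ≤ |c * ∑ i ∈ B, u i| := le_abs_self _
            _ = |c| * |∑ i ∈ B, u i| := abs_mul _ _
            _ ≤ 1 * |∑ i ∈ B, u i| := mul_le_mul_of_nonneg_right hc (abs_nonneg _)
            _ = |∑ i ∈ B, u i| := one_mul _

/-- Package F: the Wulff shape of `κ·S` is `κ • W`. -/
theorem polar_eq :
    (⋂ u ∈ Metric.sphere (0 : E20) 1, {x : E20 | inner ℝ x u ≤ κ * S (WithLp.ofLp u)}) =
      WithLp.toLp 2 '' (κ • W) := by
  have hκ := kappa_pos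
  ext x
  rw [mem_iInter_sphere_iff]
  constructor
  · intro h
    refine ⟨WithLp.ofLp x, ?_, rfl⟩
    rw [Set.mem_smul_set]
    refine ⟨κ⁻¹ • WithLp.ofLp x, ?_, ?_⟩
    · have hk : ∀ t : ℝ, κ⁻¹ * (κ * t) = t := fun t => by
        rw [← mul_assoc, inv_mul_cancel₀ hκ.ne', one_mul]
      -- the pairwise bound for two indices of the same block
      have key : ∀ i j : Fin 20, (i ∈ B1 ↔ j ∈ B1) → κ⁻¹ * x i - κ⁻¹ * x j ≤ 2 := by
        intro i j hij
        have h1 := h (Pi.single i 1 - Pi.single j 1)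
        have h2 : ∑ k, x k * (Pi.single i 1 - Pi.single j 1 : P20) k = x i - x j := by
          simp [mul_sub, Finset.sum_sub_distrib, Pi.single_apply]
        rw [h2] at h1
        have h3 := mul_le_mul_of_nonneg_left (S_single_sub_le i j hij) hκ.le
        have h4 : κ⁻¹ * (x i - x j) ≤ κ⁻¹ * (κ * 2) :=
          mul_le_mul_of_nonneg_left (h1.trans h3) (inv_pos.mpr hκ).le
        rw [hk] at h4
        linarith
      refine ⟨fun i => ?_, fun i hi j hj => ?_, fun i hi j hj => ?_⟩
      · have e : ∀ c : ℝ, ∑ k, x k * (Pi.single i c : P20) k = x i * c := by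
          intro c
          simp [Pi.single_apply]
        have h1 := h (Pi.single i 1)
        have h2 := h (Pi.single i (-1))
        rw [e] at h1 h2
        have h3 := mul_le_mul_of_nonneg_left (S_single_le i 1) hκ.le
        have h4 := mul_le_mul_of_nonneg_left (S_single_le i (-1)) hκ.le
        have h5 : κ⁻¹ * (x i * 1) ≤ κ⁻¹ * (κ * (2 * |(1:ℝ)|)) :=
          mul_le_mul_of_nonneg_left (h1.trans h3) (inv_pos.mpr hκ).le
        have h6 : κ⁻¹ * (x i * (-1)) ≤ κ⁻¹ * (κ * (2 * |(-1:ℝ)|)) :=
          mul_le_mul_of_nonneg_left (h2.trans h4) (inv_pos.mpr hκ).le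
        rw [hk] at h5 h6
        simp only [abs_one, abs_neg, mul_one] at h5 h6
        show |κ⁻¹ * x i| ≤ 2
        rw [abs_le]
        constructor <;> linarith
      · exact key i j (by simp [hi, hj])
      · have hi' : i ∉ B1 := by
          unfold B2 at hi; simpa using hi
        have hj' : j ∉ B1 := by
          unfold B2 at hj; simpa using hj
        exact key i j (by simp [hi', hj'])
    · rw [smul_smul, mul_inv_cancel₀ hκ.ne', one_smul]
  · rintro ⟨y, hy, rfl⟩
    rw [Set.mem_smul_set] at hy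
    obtain ⟨w, hw, rfl⟩ := hy
    obtain ⟨hw1, hw2, hw3⟩ := hw
    intro u
    have e : ∑ i, (WithLp.toLp 2 (κ • w) : E20) i * u i = κ * ∑ i, w i * u i := by
      rw [Finset.mul_sum]
      apply Finset.sum_congr rfl
      intro i _
      show κ * w i * u i = κ * (w i * u i)
      ring
    rw [e]
    apply mul_le_mul_of_nonneg_left _ hκ.le
    have hb1 := block_bound B1 w u (fun i _ => hw1 i) hw2
    have hb2 := block_bound B2 w u (fun i _ => hw1 i) hw3
    have e1 : ∑ i, w i * u i = ∑ i ∈ B1, w i * u i + ∑ i ∈ B2, w i * u i := by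
      unfold B2
      rw [Finset.sum_add_sum_compl]
    have e2 : ∑ i, |u i| = ∑ i ∈ B1, |u i| + ∑ i ∈ B2, |u i| := by
      unfold B2
      rw [Finset.sum_add_sum_compl]
    unfold S s1 s2
    rw [e1, e2]
    linarith

end Crest.Agent.Helper64.S0355
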